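import Vale.Agent.P043.T2.Defs

/-! # P043, row FEQ (Fourier form of the tiling equation), helper682 -/

namespace Vale.Agent.P043.T2.H682

open MeasureTheory Vale.Agent.P043.T2

theorem ee_add (j : ℤ) (x y : ℝ) : ee j (x + y) = ee j x * ee j y := by
  unfold ee
  rw [← Complex.exp_add]
  congr 1
  push_cast
  ring

theorem ee_int (j : ℤ) (z : ℤ) : ee j (z : ℝ) = 1 := by
  unfold ee
  rw [Complex.exp_eq_one_iff]
  exact ⟨j * z, by push_cast; ring⟩

theorem ee_cont (j : ℤ) : Continuous (ee j) := by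
  unfold ee
  fun_prop

theorem ind_mul (j : ℤ) (S : Set ℝ) (f : ℝ) (z : ℕ) (x : ℝ) :
    S.indicator (fun _ => (1 : ℂ)) (x - (f - z)) * ee j x =
      ee j f * S.indicator (ee j) (x - (f - z)) := by
  by_cases h : x - (f - z) ∈ S
  · rw [Set.indicator_of_mem h, Set.indicator_of_mem h, one_mul]
    have h1 : x = (x - (f - z)) + (f + ((-(z : ℤ) : ℤ) : ℝ)) := by push_cast; ring
    conv_lhs => rw [h1, ee_add, ee_add, ee_int]
    ring
  · rw [Set.indicator_of_notMem h, Set.indicator_of_notMem h]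
    ring

theorem intg (j : ℤ) {S : Set ℝ} (hS : MeasurableSet S) (a b : ℝ) :
    IntervalIntegrable (S.indicator (ee j)) volume a b := by
  rw [intervalIntegrable_iff]
  exact ((ee_cont j).intervalIntegrable a b).def'.indicator hS

theorem key1 (j : ℤ) {S : Set ℝ} (hS : MeasurableSet S) (hS2 : S ⊆ Set.Ico 0 2) (f : ℝ)
    (hf0 : 0 ≤ f) (hf1 : f < 1) :
    ∑ z ∈ Finset.range 3, ∫ x in Set.Ico (0 : ℝ) 1,
      S.indicator (fun _ => (1 : ℂ)) (x - (f - (z : ℕ))) * ee j x =
        (∫ x in S, ee j x) * ee j f := by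
  have h1 : ∀ z : ℕ, ∫ x in Set.Ico (0 : ℝ) 1,
      S.indicator (fun _ => (1 : ℂ)) (x - (f - z)) * ee j x =
        ee j f * ∫ x in (0 - (f - z))..(1 - (f - z)), S.indicator (ee j) x := by
    intro z
    rw [← intervalIntegral.integral_comp_sub_right (fun x => S.indicator (ee j) x) (f - z),
      intervalIntegral.integral_of_le zero_le_one, ← integral_const_mul,
      integral_Ioc_eq_integral_Ioo, integral_Ico_eq_integral_Ioo]
    congr 1
    funext x
    exact ind_mul j S f z x
  simp only [h1]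
  rw [← Finset.mul_sum, mul_comm]
  congr 1
  simp only [Finset.sum_range_succ, Finset.sum_range_zero, zero_add]
  have e1 : ((1 : ℝ) - (f - ((0 : ℕ) : ℝ))) = 0 - (f - ((1 : ℕ) : ℝ)) := by push_cast; ring
  have e2 : ((1 : ℝ) - (f - ((1 : ℕ) : ℝ))) = 0 - (f - ((2 : ℕ) : ℝ)) := by push_cast; ring
  rw [e1, e2, intervalIntegral.integral_add_adjacent_intervals (intg j hS _ _) (intg j hS _ _),
    intervalIntegral.integral_add_adjacent_intervals (intg j hS _ _) (intg j hS _ _),
    intervalIntegral.integral_of_le (by push_cast; linarith),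
    integral_Ioc_eq_integral_Ioo, ← integral_Ico_eq_integral_Ioo, setIntegral_indicator hS]
  congr 2
  apply Set.inter_eq_self_of_subset_right
  intro x hx
  have := hS2 hx
  simp only [Set.mem_Ico] at this ⊢
  push_cast
  constructor <;> linarith [this.1, this.2]

theorem per_nat {R : Set ℝ} (hper : ∀ b, b + 1 ∈ R ↔ b ∈ R) (b : ℝ) (z : ℕ) :
    b - z ∈ R ↔ b ∈ R := by
  induction z with
  | zero => simp
  | succ z ih =>
    rw [← ih, ← hper (b - ((z + 1 : ℕ) : ℝ))]
    have : b - ((z + 1 : ℕ) : ℝ) + 1 = b - z := by push_cast; ring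
    rw [this]

/-- the points of `R` in `[-2,1)` -/
theorem fin3 {R : Set ℝ} (hper : ∀ b, b + 1 ∈ R ↔ b ∈ R) (hfin : (R ∩ Set.Ico (0 : ℝ) 1).Finite)
    (G : Finset ℝ) (hG : ∀ b, b ∈ G ↔ b ∈ R ∧ -2 ≤ b ∧ b < 1) (h : ℝ → ℂ) :
    ∑ b ∈ G, h b = ∑ f ∈ hfin.toFinset, ∑ z ∈ Finset.range 3, h (f - (z : ℕ)) := by
  rw [← Finset.sum_product']
  symm
  refine Finset.sum_bij (fun p _ => p.1 - (p.2 : ℝ)) ?_ ?_ ?_ ?_
  · rintro ⟨f, z⟩ hp
    simp only [Finset.mem_product, Set.Finite.mem_toFinset, Set.mem_inter_iff, Set.mem_Ico,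
      Finset.mem_range] at hp
    obtain ⟨⟨hfR, h0, h1⟩, hz⟩ := hp
    rw [hG]
    have hz0 : (0 : ℝ) ≤ (z : ℝ) := Nat.cast_nonneg z
    have hz2 : (z : ℝ) ≤ 2 := by
      have : z ≤ 2 := by omega
      exact_mod_cast this
    exact ⟨(per_nat hper f z).2 hfR, by linarith, by linarith⟩
  · rintro ⟨f, z⟩ hp ⟨f', z'⟩ hp' heq
    simp only [Finset.mem_product, Set.Finite.mem_toFinset, Set.mem_inter_iff, Set.mem_Ico,
      Finset.mem_range] at hp hp' heq
    have hz : z = z' := by
      have h1 : (z : ℝ) < z' + 1 := by linarith [hp.1.2.1, hp.1.2.2, hp'.1.2.1, hp'.1.2.2]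
      have h2 : (z' : ℝ) < z + 1 := by linarith [hp.1.2.1, hp.1.2.2, hp'.1.2.1, hp'.1.2.2]
      have h1' : z < z' + 1 := by exact_mod_cast h1
      have h2' : z' < z + 1 := by exact_mod_cast h2
      omega
    subst hz
    have : f = f' := by linarith
    rw [this]
  · intro b hb
    rw [hG] at hb
    obtain ⟨hbR, h0, h1⟩ := hb
    rcases lt_or_ge b (-1) with h | h
    · refine ⟨(b + 2, 2), ?_, by push_cast; ring⟩
      simp only [Finset.mem_product, Set.Finite.mem_toFinset, Set.mem_inter_iff, Set.mem_Ico,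
        Finset.mem_range]
      refine ⟨⟨?_, by linarith, by linarith⟩, by norm_num⟩
      rw [← per_nat hper (b + 2) 2]
      convert hbR using 1
      push_cast
      ring
    · rcases lt_or_ge b 0 with h' | h'
      · refine ⟨(b + 1, 1), ?_, by push_cast; ring⟩
        simp only [Finset.mem_product, Set.Finite.mem_toFinset, Set.mem_inter_iff, Set.mem_Ico,
          Finset.mem_range]
        exact ⟨⟨(hper b).2 hbR, by linarith, by linarith⟩, by norm_num⟩
      · refine ⟨(b, 0), ?_, by push_cast; ring⟩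
        simp only [Finset.mem_product, Set.Finite.mem_toFinset, Set.mem_inter_iff, Set.mem_Ico,
          Finset.mem_range]
        exact ⟨⟨hbR, by linarith, by linarith⟩, by norm_num⟩
  · rintro ⟨f, z⟩ hp
    rfl

theorem fin3_exists {R : Set ℝ} (hper : ∀ b, b + 1 ∈ R ↔ b ∈ R)
    (hfin : (R ∩ Set.Ico (0 : ℝ) 1).Finite) :
    ∃ G : Finset ℝ, ∀ b, b ∈ G ↔ b ∈ R ∧ -2 ≤ b ∧ b < 1 := by
  classical
  refine ⟨(hfin.toFinset ×ˢ Finset.range 3).image (fun p => p.1 - (p.2 : ℝ)), ?_⟩
  intro b
  simp only [Finset.mem_image, Finset.mem_product, Set.Finite.mem_toFinset, Set.mem_inter_iff,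
    Set.mem_Ico, Finset.mem_range, Prod.exists]
  constructor
  · rintro ⟨f, z, ⟨⟨hfR, h0, h1⟩, hz⟩, rfl⟩
    have hz0 : (0 : ℝ) ≤ (z : ℝ) := Nat.cast_nonneg z
    have hz2 : (z : ℝ) ≤ 2 := by
      have : z ≤ 2 := by omega
      exact_mod_cast this
    exact ⟨(per_nat hper f z).2 hfR, by linarith, by linarith⟩
  · rintro ⟨hbR, h0, h1⟩
    rcases lt_or_ge b (-1) with h | h
    · refine ⟨b + 2, 2, ⟨⟨?_, by linarith, by linarith⟩, by norm_num⟩, by push_cast; ring⟩
      rw [← per_nat hper (b + 2) 2]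
      convert hbR using 1
      push_cast
      ring
    · rcases lt_or_ge b 0 with h' | h'
      · exact ⟨b + 1, 1, ⟨⟨(hper b).2 hbR, by linarith, by linarith⟩, by norm_num⟩,
          by push_cast; ring⟩
      · exact ⟨b, 0, ⟨⟨hbR, by linarith, by linarith⟩, by norm_num⟩, by push_cast; ring⟩

theorem st_feq (hme : StMe) (hfr : StFinRow) : StFeq := by
  classical
  intro t ht R X hC hper j k n
  obtain ⟨hEm, -, hE2⟩ := hme t
  have hfin : ∀ m, (R m ∩ Set.Ico (0 : ℝ) 1).Finite := hfr t ht R X hC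
  choose G hG using fun m => fin3_exists (hper m) (hfin m)
  -- the counting function
  have hcount : ∀ᵐ x : ℝ, x ∈ Set.Ico (0 : ℝ) 1 →
      ∑ i : Ix, ∑ b ∈ G (n - rw k i), (E t k i).indicator (fun _ => (1 : ℂ)) (x - b) =
        X.indicator (fun _ => (1 : ℂ)) x := by
    filter_upwards [hC.yes, hC.no] with x hyes hno hx
    by_cases hX : x ∈ X
    · obtain ⟨⟨b0, i0⟩, ⟨hb0, hE0⟩, huniq⟩ := hyes hX k n
      simp only at hb0 hE0 huniq
      rw [Set.indicator_of_mem hX]
      have hr := hE2 k i0 hE0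
      have hb0G : b0 ∈ G (n - rw k i0) := by
        rw [hG]
        simp only [Set.mem_Ico] at hr hx
        exact ⟨hb0, by linarith [hr.1, hr.2, hx.1, hx.2], by linarith [hr.1, hr.2, hx.1, hx.2]⟩
      rw [Finset.sum_eq_single i0, Finset.sum_eq_single b0, Set.indicator_of_mem hE0]
      · intro b hb hne
        apply Set.indicator_of_notMem
        intro hbE
        have := huniq (b, i0) ⟨((hG _ b).1 hb).1, hbE⟩
        exact hne (congrArg Prod.fst this)
      · intro h
        exact absurd hb0G h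
      · intro i _ hne
        apply Finset.sum_eq_zero
        intro b hb
        apply Set.indicator_of_notMem
        intro hbE
        have := huniq (b, i) ⟨((hG _ b).1 hb).1, hbE⟩
        exact hne (congrArg Prod.snd this)
      · intro h
        exact absurd (Finset.mem_univ _) h
    · rw [Set.indicator_of_notMem hX]
      apply Finset.sum_eq_zero
      intro i _
      apply Finset.sum_eq_zero
      intro b hb
      apply Set.indicator_of_notMem
      intro hbE
      exact hno hX k n (b, i) ⟨((hG _ b).1 hb).1, hbE⟩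
  -- integrate
  have hI : ∫ x in Set.Ico (0 : ℝ) 1,
      (∑ i : Ix, ∑ b ∈ G (n - rw k i), (E t k i).indicator (fun _ => (1 : ℂ)) (x - b)) * ee j x =
        ∫ x in X ∩ Set.Ico (0 : ℝ) 1, ee j x := by
    rw [Set.inter_comm, ← setIntegral_indicator hC.meas]
    apply setIntegral_congr_ae measurableSet_Ico
    filter_upwards [hcount] with x hx hx1
    rw [hx hx1]
    by_cases hX : x ∈ X
    · rw [Set.indicator_of_mem hX, Set.indicator_of_mem hX, one_mul]
    · rw [Set.indicator_of_notMem hX, Set.indicator_of_notMem hX, zero_mul]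
  rw [← hI]
  simp only [Finset.sum_mul]
  have hint : ∀ (i : Ix) (b : ℝ), Integrable
      (fun x => (E t k i).indicator (fun _ => (1 : ℂ)) (x - b) * ee j x)
      (volume.restrict (Set.Ico (0 : ℝ) 1)) := by
    intro i b
    have hc : IntegrableOn (ee j) (Set.Ico (0 : ℝ) 1) := by
      have := (ee_cont j).integrableOn_Icc (a := (0 : ℝ)) (b := 1) (μ := volume)
      exact this.mono_set Set.Ico_subset_Icc_self
    have : (fun x => (E t k i).indicator (fun _ => (1 : ℂ)) (x - b) * ee j x) =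
        ((fun x => x - b) ⁻¹' (E t k i)).indicator (ee j) := by
      funext x
      by_cases h : x - b ∈ E t k i
      · rw [Set.indicator_of_mem h, Set.indicator_of_mem (by exact h), one_mul]
      · rw [Set.indicator_of_notMem h, Set.indicator_of_notMem (by exact h), zero_mul]
    rw [this]
    exact hc.indicator ((measurable_id.sub_const b) (hEm k i))
  rw [integral_finset_sum _ (fun i _ => integrable_finset_sum _ (fun b _ => hint i b))]
  apply Finset.sum_congr rfl
  intro i _
  rw [integral_finset_sum _ (fun b _ => hint i b)]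
  rw [fin3 (hper _) (hfin _) (G (n - rw k i)) (hG _)]
  unfold rr
  rw [finsum_mem_eq_finite_toFinset_sum _ (hfin _), Finset.mul_sum]
  apply Finset.sum_congr rfl
  intro f hf
  simp only [Set.Finite.mem_toFinset, Set.mem_inter_iff, Set.mem_Ico] at hf
  exact (key1 j (hEm k i) (hE2 k i) f hf.2.1 hf.2.2).symm

end Vale.Agent.P043.T2.H682
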