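import Vale.Agent.P043.T2.FinDefs

/-! # P043, rows FG0 / FG1 (gluing of the two families), helper682 -/

namespace Vale.Agent.P043.T2.H682

open Vale.Agent.P043.T2

/-- matching relation between two finsets of equal cardinality -/
theorem match_rel {P Q : Type} (S : Finset P) (T : Finset Q) (h : S.card = T.card) :
    ∃ M : P → Q → Prop, (∀ p q, M p q → p ∈ S ∧ q ∈ T) ∧ (∀ p ∈ S, ∃! q, M p q) ∧
      (∀ q ∈ T, ∃! p, M p q) := by
  classical
  let e := Finset.equivOfCardEq h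
  refine ⟨fun p q => ∃ hp : p ∈ S, ((e ⟨p, hp⟩ : T) : Q) = q, ?_, ?_, ?_⟩
  · rintro p q ⟨hp, rfl⟩
    exact ⟨hp, (e ⟨p, hp⟩).2⟩
  · intro p hp
    refine ⟨(e ⟨p, hp⟩ : T), ⟨hp, rfl⟩, ?_⟩
    rintro q ⟨_, rfl⟩
    rfl
  · intro q hq
    refine ⟨(e.symm ⟨q, hq⟩ : S), ⟨(e.symm ⟨q, hq⟩).2, by simp⟩, ?_⟩
    rintro p ⟨hp, hpq⟩
    have h1 : e ⟨p, hp⟩ = ⟨q, hq⟩ := Subtype.ext hpq
    rw [← h1]
    simp

open Classical in
theorem glue {H H' P Q C L : Type} [Fintype P] [Fintype Q] (cell : P → C) (layer : Q → L)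
    (D : L → H → P → Prop) (B : C → H' → Q → Prop) (good : C → Prop)
    (hD : ∀ l h p, D l h p → good (cell p))
    (hcard : ∀ l c h h', good c →
      (Finset.univ.filter fun p => D l h p ∧ cell p = c).card =
        (Finset.univ.filter fun q => B c h' q ∧ layer q = l).card) :
    ∃ A : H → H' → P → Q → Prop,
      (∀ h h' p q, A h h' p q → D (layer q) h p ∧ B (cell p) h' q ∧ good (cell p)) ∧
      (∀ h h' p l, D l h p → ∃! q, layer q = l ∧ A h h' p q) ∧
      (∀ h h' q c, good c → B c h' q → ∃! p, cell p = c ∧ A h h' p q) := by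
  have key : ∀ (l : L) (c : C) (h : H) (h' : H'), ∃ M : P → Q → Prop, good c →
      (∀ p q, M p q → (D l h p ∧ cell p = c) ∧ (B c h' q ∧ layer q = l)) ∧
      (∀ p, D l h p ∧ cell p = c → ∃! q, M p q) ∧
      (∀ q, B c h' q ∧ layer q = l → ∃! p, M p q) := by
    intro l c h h'
    by_cases hc : good c
    · obtain ⟨M, h1, h2, h3⟩ := match_rel _ _ (hcard l c h h' hc)
      refine ⟨M, fun _ => ⟨?_, ?_, ?_⟩⟩
      · intro p q hpq
        have := h1 p q hpq
        simpa using this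
      · intro p hp
        exact h2 p (by simpa using hp)
      · intro q hq
        exact h3 q (by simpa using hq)
    · exact ⟨fun _ _ => False, fun h => absurd h hc⟩
  choose M hM using key
  refine ⟨fun h h' p q => M (layer q) (cell p) h h' p q ∧ good (cell p), ?_, ?_, ?_⟩
  · rintro h h' p q ⟨hm, hg⟩
    have := (hM (layer q) (cell p) h h' hg).1 p q hm
    exact ⟨this.1.1, this.2.1, hg⟩
  · intro h h' p l hd
    have hg := hD l h p hd
    obtain ⟨h1, h2, h3⟩ := hM l (cell p) h h' hg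
    obtain ⟨q, hq, huq⟩ := h2 p ⟨hd, rfl⟩
    have hlq := (h1 p q hq).2.2
    refine ⟨q, ⟨hlq, ?_, hg⟩, ?_⟩
    · rw [hlq]
      exact hq
    · rintro q' ⟨hl', hm', -⟩
      rw [hl'] at hm'
      exact huq q' hm'
  · intro h h' q c hg hb
    obtain ⟨h1, h2, h3⟩ := hM (layer q) c h h' hg
    obtain ⟨p, hp, hup⟩ := h3 q ⟨hb, rfl⟩
    have hcp := (h1 p q hp).1.2
    refine ⟨p, ⟨hcp, ?_, ?_⟩, ?_⟩
    · rw [hcp]
      exact hp
    · rw [hcp]
      exact hg
    · rintro p' ⟨hc', hm', -⟩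
      rw [hc'] at hm'
      exact hup p' hm'

/-- the cell of a position -/
def cell (p : ZMod 4 × ZMod 9) : Fin 2 × Fin 3 :=
  (⟨p.1.val % 2, Nat.mod_lt _ (by norm_num)⟩, ⟨p.2.val % 3, Nat.mod_lt _ (by norm_num)⟩)

/-- the layer of a row -/
def layer (q : ZMod 25 × ZMod 49) : Fin 5 × Fin 7 :=
  (⟨q.1.val % 5, Nat.mod_lt _ (by norm_num)⟩, ⟨q.2.val % 7, Nat.mod_lt _ (by norm_num)⟩)

theorem cell_eq (p : ZMod 4 × ZMod 9) (c : Fin 2 × Fin 3) :
    cell p = c ↔ p.1.val % 2 = c.1 ∧ p.2.val % 3 = c.2 := by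
  simp [cell, Prod.ext_iff, Fin.ext_iff]

theorem layer_eq (q : ZMod 25 × ZMod 49) (c : Fin 5 × Fin 7) :
    layer q = c ↔ q.1.val % 5 = c.1 ∧ q.2.val % 7 = c.2 := by
  simp [layer, Prod.ext_iff, Fin.ext_iff]

theorem tab_lt : ∀ (l : Fin 7) (k : Fin 5), tab l k < 17 := by decide +kernel

theorem kap_true (i : Ix) :
    kap (row true i) = (((i.1 : ℕ) : ZMod 4), ((i.2.1 : ℕ) : ZMod 9),
      5 * ((i.2.2.1 : ℕ) : ZMod 25), 7 * ((i.2.2.2 : ℕ) : ZMod 49)) := by
  have a1 : (11025 : ZMod 4) = 1 := by decide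
  have a2 : (34300 : ZMod 4) = 0 := by decide
  have a3 : (15876 : ZMod 4) = 0 := by decide
  have a4 : (27000 : ZMod 4) = 0 := by decide
  have b1 : (11025 : ZMod 9) = 0 := by decide
  have b2 : (34300 : ZMod 9) = 1 := by decide
  have b3 : (15876 : ZMod 9) = 0 := by decide
  have b4 : (27000 : ZMod 9) = 0 := by decide
  have c1 : (11025 : ZMod 25) = 0 := by decide
  have c2 : (34300 : ZMod 25) = 0 := by decide
  have c3 : (15876 : ZMod 25) = 1 := by decide
  have c4 : (27000 : ZMod 25) = 0 := by decide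
  have d1 : (11025 : ZMod 49) = 0 := by decide
  have d2 : (34300 : ZMod 49) = 0 := by decide
  have d3 : (15876 : ZMod 49) = 0 := by decide
  have d4 : (27000 : ZMod 49) = 1 := by decide
  unfold kap row
  simp only [if_true]
  push_cast
  rw [a1, a2, a3, a4, b1, b2, b3, b4, c1, c2, c3, c4, d1, d2, d3, d4]
  refine Prod.ext ?_ (Prod.ext ?_ (Prod.ext ?_ ?_)) <;> ring

theorem kap_false (i : Ix) :
    kap (row false i) = (2 * ((i.1 : ℕ) : ZMod 4), 3 * ((i.2.1 : ℕ) : ZMod 9),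
      ((i.2.2.1 : ℕ) : ZMod 25), ((i.2.2.2 : ℕ) : ZMod 49)) := by
  have a1 : (11025 : ZMod 4) = 1 := by decide
  have a2 : (34300 : ZMod 4) = 0 := by decide
  have a3 : (15876 : ZMod 4) = 0 := by decide
  have a4 : (27000 : ZMod 4) = 0 := by decide
  have b1 : (11025 : ZMod 9) = 0 := by decide
  have b2 : (34300 : ZMod 9) = 1 := by decide
  have b3 : (15876 : ZMod 9) = 0 := by decide
  have b4 : (27000 : ZMod 9) = 0 := by decide
  have c1 : (11025 : ZMod 25) = 0 := by decide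
  have c2 : (34300 : ZMod 25) = 0 := by decide
  have c3 : (15876 : ZMod 25) = 1 := by decide
  have c4 : (27000 : ZMod 25) = 0 := by decide
  have d1 : (11025 : ZMod 49) = 0 := by decide
  have d2 : (34300 : ZMod 49) = 0 := by decide
  have d3 : (15876 : ZMod 49) = 0 := by decide
  have d4 : (27000 : ZMod 49) = 1 := by decide
  unfold kap row
  simp only [Bool.false_eq_true, if_false]
  push_cast
  rw [a1, a2, a3, a4, b1, b2, b3, b4, c1, c2, c3, c4, d1, d2, d3, d4]
  refine Prod.ext ?_ (Prod.ext ?_ (Prod.ext ?_ ?_)) <;> ring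

theorem lay5 : ∀ (k : ZMod 25) (c : Fin 5), (k - 5 * ((c : ℕ) : ZMod 25)).val % 5 = k.val % 5 := by
  decide +kernel
theorem lay7 : ∀ (k : ZMod 49) (c : Fin 7), (k - 7 * ((c : ℕ) : ZMod 49)).val % 7 = k.val % 7 := by
  decide +kernel
theorem lay2 : ∀ (k : ZMod 4) (c : Fin 2), (k - 2 * ((c : ℕ) : ZMod 4)).val % 2 = k.val % 2 := by
  decide +kernel
theorem lay3 : ∀ (k : ZMod 9) (c : Fin 3), (k - 3 * ((c : ℕ) : ZMod 9)).val % 3 = k.val % 3 := by
  decide +kernel

theorem sur5 : ∀ (k1 k : ZMod 25), k1.val % 5 = k.val % 5 →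
    ∃ c : Fin 5, k1 = k - 5 * ((c : ℕ) : ZMod 25) := by
  decide +kernel
theorem sur7 : ∀ (k1 k : ZMod 49), k1.val % 7 = k.val % 7 →
    ∃ c : Fin 7, k1 = k - 7 * ((c : ℕ) : ZMod 49) := by
  decide +kernel
theorem sur2 : ∀ (k1 k : ZMod 4), k1.val % 2 = k.val % 2 →
    ∃ c : Fin 2, k1 = k - 2 * ((c : ℕ) : ZMod 4) := by
  decide +kernel
theorem sur3 : ∀ (k1 k : ZMod 9), k1.val % 3 = k.val % 3 →
    ∃ c : Fin 3, k1 = k - 3 * ((c : ℕ) : ZMod 9) := by
  decide +kernel

theorem inj5 : ∀ (c c' : Fin 5), 5 * ((c : ℕ) : ZMod 25) = 5 * ((c' : ℕ) : ZMod 25) → c = c' := by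
  decide +kernel
theorem inj7 : ∀ (c c' : Fin 7), 7 * ((c : ℕ) : ZMod 49) = 7 * ((c' : ℕ) : ZMod 49) → c = c' := by
  decide +kernel
theorem inj2 : ∀ (c c' : Fin 2), 2 * ((c : ℕ) : ZMod 4) = 2 * ((c' : ℕ) : ZMod 4) → c = c' := by
  decide +kernel
theorem inj3 : ∀ (c c' : Fin 3), 3 * ((c : ℕ) : ZMod 9) = 3 * ((c' : ℕ) : ZMod 9) → c = c' := by
  decide +kernel

theorem st_fg1 : StFG1 := by
  classical
  intro hFD1 hFD2 hFD3 hFB1 hFB2
  obtain ⟨A, hA1, hA2, hA3⟩ := glue (H := ZMod 4) (H' := ZMod 25) cell layer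
    (fun l h p => d1 (tab l.2 l.1) h p.1 p.2 = true)
    (fun c h' q => b1 c.1 h' q.1 q.2 = true)
    (fun c => cc c.1 c.2 = true)
    (fun l h p hd => hFD2.2 ⟨tab l.2 l.1, tab_lt l.2 l.1⟩ h p.1 p.2 hd)
    (by
      intro l c h h' hg
      have e1 := hFD3.2 ⟨tab l.2 l.1, tab_lt l.2 l.1⟩ h c.1 c.2 hg
      have e2 := hFB2.2 c.1 c.2 h' l.1 l.2 hg
      simp only [cell_eq, layer_eq]
      exact e1.trans e2.symm)
  refine ⟨fun h h' r => A h h' (r.1, r.2.1) (r.2.2.1, r.2.2.2), ?_, ?_⟩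
  · rintro h h' ⟨i0, j0, k0, l0⟩
    dsimp only
    have hn := tab_lt ⟨l0.val % 7, Nat.mod_lt _ (by norm_num)⟩ ⟨k0.val % 5, Nat.mod_lt _ (by norm_num)⟩
    have hlay : ∀ (c : Fin 5) (d : Fin 7), layer (k0 - 5 * ((c : ℕ) : ZMod 25),
        l0 - 7 * ((d : ℕ) : ZMod 49)) = layer (k0, l0) := by
      intro c d
      rw [layer_eq]
      exact ⟨lay5 k0 c, lay7 l0 d⟩
    have hfd := hFD1 ⟨_, hn⟩ h i0 j0
    constructor
    · intro hx
      obtain ⟨q, hq, huq⟩ := hfd.1 hx
      obtain ⟨⟨k1, l1⟩, ⟨hl1, hA⟩, huA⟩ := hA2 (h - ((q.1 : ℕ) : ZMod 4)) h'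
        (i0 - ((q.1 : ℕ) : ZMod 4), j0 - ((q.2 : ℕ) : ZMod 9)) (layer (k0, l0)) hq
      have hl1' := (layer_eq _ _).1 hl1
      obtain ⟨c, hc⟩ := sur5 k1 k0 hl1'.1
      obtain ⟨d, hd⟩ := sur7 l1 l0 hl1'.2
      refine ⟨(q.1, q.2, c, d), ?_, ?_⟩
      · simp only [kap_true]
        simp only [Prod.fst_sub, Prod.snd_sub]
        rw [← hc, ← hd]
        exact hA
      · rintro ⟨a, b, c', d'⟩ hi
        simp only [kap_true] at hi
        simp only [Prod.fst_sub, Prod.snd_sub] at hi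
        have h1 := (hA1 _ _ _ _ hi).1
        rw [hlay c' d'] at h1
        have h2 := huq (a, b) h1
        have ha : a = q.1 := congrArg Prod.fst h2
        have hb : b = q.2 := congrArg Prod.snd h2
        subst ha hb
        have h3 := huA _ ⟨hlay c' d', hi⟩
        rw [hc, hd] at h3
        have h4 : c' = c := by
          apply inj5
          have := congrArg Prod.fst h3
          simpa using this
        have h5 : d' = d := by
          apply inj7
          have := congrArg Prod.snd h3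
          simpa using this
        rw [h4, h5]
    · intro hx
      rintro ⟨a, b, c', d'⟩ hi
      simp only [kap_true] at hi
      simp only [Prod.fst_sub, Prod.snd_sub] at hi
      have h1 := (hA1 _ _ _ _ hi).1
      rw [hlay c' d'] at h1
      have h2 := hfd.2 hx (a, b)
      have h3 : d1 (tab (l0.val % 7) (k0.val % 5)) (h - ((a : ℕ) : ZMod 4)) (i0 - ((a : ℕ) : ZMod 4))
        (j0 - ((b : ℕ) : ZMod 9)) = true := h1
      have h4 : d1 (tab (l0.val % 7) (k0.val % 5)) (h - ((a : ℕ) : ZMod 4)) (i0 - ((a : ℕ) : ZMod 4))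
        (j0 - ((b : ℕ) : ZMod 9)) = false := h2
      rw [h3] at h4
      exact Bool.noConfusion h4
  · rintro h h' ⟨i0, j0, k0, l0⟩
    dsimp only
    have hcell : ∀ (u : Fin 2) (v : Fin 3), cell (i0 - 2 * ((u : ℕ) : ZMod 4),
        j0 - 3 * ((v : ℕ) : ZMod 9)) = cell (i0, j0) := by
      intro u v
      rw [cell_eq]
      exact ⟨lay2 i0 u, lay3 j0 v⟩
    constructor
    · intro hx
      obtain ⟨q, hq, huq⟩ := hFB1.2 (cell (i0, j0)).1 (cell (i0, j0)).2 h' k0 l0 hx
      obtain ⟨⟨i1, j1⟩, ⟨hl1, hA⟩, huA⟩ := hA3 h (h' - ((q.1 : ℕ) : ZMod 25))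
        (k0 - ((q.1 : ℕ) : ZMod 25), l0 - ((q.2 : ℕ) : ZMod 49)) (cell (i0, j0)) hx hq
      have hl1' := (cell_eq _ _).1 hl1
      obtain ⟨u, hu⟩ := sur2 i1 i0 hl1'.1
      obtain ⟨v, hv⟩ := sur3 j1 j0 hl1'.2
      refine ⟨(u, v, q.1, q.2), ?_, ?_⟩
      · simp only [kap_false]
        simp only [Prod.fst_sub, Prod.snd_sub]
        rw [← hu, ← hv]
        exact hA
      · rintro ⟨u', v', c, d⟩ hi
        simp only [kap_false] at hi
        simp only [Prod.fst_sub, Prod.snd_sub] at hi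
        have h1 := (hA1 _ _ _ _ hi).2.1
        rw [hcell u' v'] at h1
        have h2 := huq (c, d) h1
        have ha : c = q.1 := congrArg Prod.fst h2
        have hb : d = q.2 := congrArg Prod.snd h2
        subst ha hb
        have h3 := huA _ ⟨hcell u' v', hi⟩
        rw [hu, hv] at h3
        have h4 : u' = u := by
          apply inj2
          have := congrArg Prod.fst h3
          simpa using this
        have h5 : v' = v := by
          apply inj3
          have := congrArg Prod.snd h3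
          simpa using this
        rw [h4, h5]
    · intro hx
      rintro ⟨u', v', c, d⟩ hi
      simp only [kap_false] at hi
      simp only [Prod.fst_sub, Prod.snd_sub] at hi
      have h1 := (hA1 _ _ _ _ hi).2.2
      rw [hcell u' v'] at h1
      have h3 : cc (i0.val % 2) (j0.val % 3) = true := h1
      rw [h3] at hx
      exact Bool.noConfusion hx

theorem st_fg0 : StFG0 := by
  classical
  intro hFD0 hFD2 hFD3 hFB1 hFB2
  obtain ⟨A, hA1, hA2, hA3⟩ := glue (H := ZMod 9) (H' := ZMod 49) cell layer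
    (fun l h p => d0 (tab l.2 l.1) h p.1 p.2 = true)
    (fun c h' q => b0 c.1 c.2 h' q.1 q.2 = true)
    (fun c => cc c.1 c.2 = false)
    (fun l h p hd => hFD2.1 ⟨tab l.2 l.1, tab_lt l.2 l.1⟩ h p.1 p.2 hd)
    (by
      intro l c h h' hg
      have e1 := hFD3.1 ⟨tab l.2 l.1, tab_lt l.2 l.1⟩ h c.1 c.2 hg
      have e2 := hFB2.1 c.1 c.2 h' l.1 l.2 hg
      simp only [cell_eq, layer_eq]
      exact e1.trans e2.symm)
  refine ⟨fun h h' r => A h h' (r.1, r.2.1) (r.2.2.1, r.2.2.2), ?_, ?_⟩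
  · rintro h h' ⟨i0, j0, k0, l0⟩
    dsimp only
    have hn := tab_lt ⟨l0.val % 7, Nat.mod_lt _ (by norm_num)⟩ ⟨k0.val % 5, Nat.mod_lt _ (by norm_num)⟩
    have hlay : ∀ (c : Fin 5) (d : Fin 7), layer (k0 - 5 * ((c : ℕ) : ZMod 25),
        l0 - 7 * ((d : ℕ) : ZMod 49)) = layer (k0, l0) := by
      intro c d
      rw [layer_eq]
      exact ⟨lay5 k0 c, lay7 l0 d⟩
    have hfd := hFD0 ⟨_, hn⟩ h j0 i0
    constructor
    · intro hx
      obtain ⟨q, hq, huq⟩ := hfd.1 hx
      obtain ⟨⟨k1, l1⟩, ⟨hl1, hA⟩, huA⟩ := hA2 (h - ((q.2 : ℕ) : ZMod 9)) h'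
        (i0 - ((q.1 : ℕ) : ZMod 4), j0 - ((q.2 : ℕ) : ZMod 9)) (layer (k0, l0)) hq
      have hl1' := (layer_eq _ _).1 hl1
      obtain ⟨c, hc⟩ := sur5 k1 k0 hl1'.1
      obtain ⟨d, hd⟩ := sur7 l1 l0 hl1'.2
      refine ⟨(q.1, q.2, c, d), ?_, ?_⟩
      · simp only [kap_true]
        simp only [Prod.fst_sub, Prod.snd_sub]
        rw [← hc, ← hd]
        exact hA
      · rintro ⟨a, b, c', d'⟩ hi
        simp only [kap_true] at hi
        simp only [Prod.fst_sub, Prod.snd_sub] at hi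
        have h1 := (hA1 _ _ _ _ hi).1
        rw [hlay c' d'] at h1
        have h2 := huq (a, b) h1
        have ha : a = q.1 := congrArg Prod.fst h2
        have hb : b = q.2 := congrArg Prod.snd h2
        subst ha hb
        have h3 := huA _ ⟨hlay c' d', hi⟩
        rw [hc, hd] at h3
        have h4 : c' = c := by
          apply inj5
          have := congrArg Prod.fst h3
          simpa using this
        have h5 : d' = d := by
          apply inj7
          have := congrArg Prod.snd h3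
          simpa using this
        rw [h4, h5]
    · intro hx
      rintro ⟨a, b, c', d'⟩ hi
      simp only [kap_true] at hi
      simp only [Prod.fst_sub, Prod.snd_sub] at hi
      have h1 := (hA1 _ _ _ _ hi).1
      rw [hlay c' d'] at h1
      have h2 := hfd.2 hx (a, b)
      have h3 : d0 (tab (l0.val % 7) (k0.val % 5)) (h - ((b : ℕ) : ZMod 9)) (i0 - ((a : ℕ) : ZMod 4))
        (j0 - ((b : ℕ) : ZMod 9)) = true := h1
      have h4 : d0 (tab (l0.val % 7) (k0.val % 5)) (h - ((b : ℕ) : ZMod 9)) (i0 - ((a : ℕ) : ZMod 4))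
        (j0 - ((b : ℕ) : ZMod 9)) = false := h2
      rw [h3] at h4
      exact Bool.noConfusion h4
  · rintro h h' ⟨i0, j0, k0, l0⟩
    dsimp only
    have hcell : ∀ (u : Fin 2) (v : Fin 3), cell (i0 - 2 * ((u : ℕ) : ZMod 4),
        j0 - 3 * ((v : ℕ) : ZMod 9)) = cell (i0, j0) := by
      intro u v
      rw [cell_eq]
      exact ⟨lay2 i0 u, lay3 j0 v⟩
    constructor
    · intro hx
      obtain ⟨q, hq, huq⟩ := hFB1.1 (cell (i0, j0)).1 (cell (i0, j0)).2 h' l0 k0 hx
      obtain ⟨⟨i1, j1⟩, ⟨hl1, hA⟩, huA⟩ := hA3 h (h' - ((q.2 : ℕ) : ZMod 49))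
        (k0 - ((q.1 : ℕ) : ZMod 25), l0 - ((q.2 : ℕ) : ZMod 49)) (cell (i0, j0)) hx hq
      have hl1' := (cell_eq _ _).1 hl1
      obtain ⟨u, hu⟩ := sur2 i1 i0 hl1'.1
      obtain ⟨v, hv⟩ := sur3 j1 j0 hl1'.2
      refine ⟨(u, v, q.1, q.2), ?_, ?_⟩
      · simp only [kap_false]
        simp only [Prod.fst_sub, Prod.snd_sub]
        rw [← hu, ← hv]
        exact hA
      · rintro ⟨u', v', c, d⟩ hi
        simp only [kap_false] at hi
        simp only [Prod.fst_sub, Prod.snd_sub] at hi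
        have h1 := (hA1 _ _ _ _ hi).2.1
        rw [hcell u' v'] at h1
        have h2 := huq (c, d) h1
        have ha : c = q.1 := congrArg Prod.fst h2
        have hb : d = q.2 := congrArg Prod.snd h2
        subst ha hb
        have h3 := huA _ ⟨hcell u' v', hi⟩
        rw [hu, hv] at h3
        have h4 : u' = u := by
          apply inj2
          have := congrArg Prod.fst h3
          simpa using this
        have h5 : v' = v := by
          apply inj3
          have := congrArg Prod.snd h3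
          simpa using this
        rw [h4, h5]
    · intro hx
      rintro ⟨u', v', c, d⟩ hi
      simp only [kap_false] at hi
      simp only [Prod.fst_sub, Prod.snd_sub] at hi
      have h1 := (hA1 _ _ _ _ hi).2.2
      rw [hcell u' v'] at h1
      have h3 : cc (i0.val % 2) (j0.val % 3) = false := h1
      rw [h3] at hx
      exact Bool.noConfusion hx

end Vale.Agent.P043.T2.H682
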